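import Mathlib.Data.Matrix.Basis
import Mathlib.Data.Matrix.Basic
import Mathlib.GroupTheory.OrderOfElement
import Mathlib.Algebra.Group.Subgroup.Basic
import Mathlib.Algebra.Ring.Equiv
import Mathlib.Algebra.GroupWithZero.Units.Fintype
import Mathlib.Data.Fintype.Pi
import Mathlib.Tactic.NoncommRing
import Mathlib.Tactic.Abel
import Mathlib.Tactic.Group

/-!
Gaussian elimination over a net with local diagonal corners: every invertible matrix which is the
identity modulo the net is a product of transvections of the net and of diagonal matrices.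
-/

set_option linter.all false

namespace Vale.Agent.P183.R2.H868

open Matrix Finset

variable {R : Type} [Ring R] {N : Type} [Fintype N] [DecidableEq N]

/-- All entries in the net. -/
def InT (T : N → N → AddSubgroup R) (M : Matrix N N R) : Prop := ∀ a b, M a b ∈ T a b

section basic

variable {T : N → N → AddSubgroup R}

theorem InT.zero : InT T (0 : Matrix N N R) := fun a b => (T a b).zero_mem

theorem InT.add {M M' : Matrix N N R} (h : InT T M) (h' : InT T M') : InT T (M + M') :=
  fun a b => (T a b).add_mem (h a b) (h' a b)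

theorem InT.neg {M : Matrix N N R} (h : InT T M) : InT T (-M) :=
  fun a b => (T a b).neg_mem (h a b)

theorem InT.sub {M M' : Matrix N N R} (h : InT T M) (h' : InT T M') : InT T (M - M') :=
  fun a b => (T a b).sub_mem (h a b) (h' a b)

theorem InT.mul (hTT : ∀ a b c s t, s ∈ T a b → t ∈ T b c → s * t ∈ T a c)
    {M M' : Matrix N N R} (h : InT T M) (h' : InT T M') : InT T (M * M') := by
  intro a b
  rw [Matrix.mul_apply]
  exact (T a b).sum_mem fun c _ => hTT a c b _ _ (h a c) (h' c b)

theorem InT.single {a b : N} {t : R} (ht : t ∈ T a b) : InT T (Matrix.single a b t) := by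
  intro c d
  rw [Matrix.single_apply]
  split_ifs with h
  · rw [← h.1, ← h.2]; exact ht
  · exact (T c d).zero_mem

theorem InT.sum {s : Finset N} {F : N → Matrix N N R} (h : ∀ a ∈ s, InT T (F a)) :
    InT T (∑ a ∈ s, F a) := by
  intro c d
  rw [Matrix.sum_apply]
  exact (T c d).sum_mem fun a ha => h a ha c d

/-- Units which are `1` modulo the net are closed under products. -/
theorem mul_sub_one (hTT : ∀ a b c s t, s ∈ T a b → t ∈ T b c → s * t ∈ T a c)
    {g h : Matrix N N R} (hg : InT T (g - 1)) (hh : InT T (h - 1)) : InT T (g * h - 1) := by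
  have e : g * h - 1 = (g - 1) * (h - 1) + ((g - 1) + (h - 1)) := by noncomm_ring
  rw [e]
  exact (hg.mul hTT hh).add (hg.add hh)

theorem pow_sub_one (hTT : ∀ a b c s t, s ∈ T a b → t ∈ T b c → s * t ∈ T a c)
    {g : Matrix N N R} (hg : InT T (g - 1)) (n : ℕ) : InT T (g ^ n - 1) := by
  induction n with
  | zero => rw [pow_zero, sub_self]; exact InT.zero
  | succ n ih => rw [pow_succ]; exact mul_sub_one hTT ih hg

theorem inv_sub_one [Finite R] (hTT : ∀ a b c s t, s ∈ T a b → t ∈ T b c → s * t ∈ T a c)
    {g : (Matrix N N R)ˣ} (hg : InT T ((g : Matrix N N R) - 1)) :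
    InT T (((g⁻¹ : (Matrix N N R)ˣ) : Matrix N N R) - 1) := by
  have : Finite (Matrix N N R) := inferInstanceAs (Finite (N → N → R))
  have hf : IsOfFinOrder g := isOfFinOrder_of_finite g
  have h1 : g⁻¹ = g ^ (orderOf g - 1) := by
    have hp := hf.orderOf_pos
    have h2 : g ^ (orderOf g - 1) * g = 1 := by
      rw [← pow_succ, Nat.sub_add_cancel hp, pow_orderOf_eq_one]
    exact (eq_inv_of_mul_eq_one_left h2).symm
  rw [h1, Units.val_pow_eq_pow_val]
  exact pow_sub_one hTT hg _

end basic

/-- Transvections. -/
def tu (a b : N) (t : R) (h : a ≠ b) : (Matrix N N R)ˣ where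
  val := 1 + Matrix.single a b t
  inv := 1 + Matrix.single a b (-t)
  val_inv := by
    have h0 : Matrix.single a b t * Matrix.single a b (-t) = 0 :=
      Matrix.single_mul_single_of_ne _ _ _ _ (Ne.symm h) _
    rw [mul_add, add_mul, add_mul, h0, one_mul, one_mul, mul_one, add_zero, add_assoc,
      ← Matrix.single_add, add_neg_cancel, Matrix.single_zero, add_zero]
  inv_val := by
    have h0 : Matrix.single a b (-t) * Matrix.single a b t = 0 :=
      Matrix.single_mul_single_of_ne _ _ _ _ (Ne.symm h) _
    rw [mul_add, add_mul, add_mul, h0, one_mul, one_mul, mul_one, add_zero, add_assoc,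
      ← Matrix.single_add, neg_add_cancel, Matrix.single_zero, add_zero]

theorem tu_val (a b : N) (t : R) (h : a ≠ b) :
    ((tu a b t h : (Matrix N N R)ˣ) : Matrix N N R) = 1 + Matrix.single a b t := rfl

/-- In a local corner a sum of elements which are not left invertible is not left invertible. -/
theorem exists_left_inv {I : Type} {f : R} {U : AddSubgroup R}
    (hU : ∀ x, x ∈ U ↔ f * x * f = x) (hf : f * f = f) (hne : f ≠ 0)
    (loc : ∀ x ∈ U, (∃ y ∈ U, y * x = f) ∨ (∃ y ∈ U, y * (f - x) = f))
    (s : Finset I) (x : I → R) (hx : ∀ i ∈ s, x i ∈ U) (z : R) (hz : z ∈ U)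
    (h : z * ∑ i ∈ s, x i = f) : ∃ i ∈ s, ∃ y ∈ U, y * x i = f := by
  classical
  have hUm : ∀ x y, x ∈ U → y ∈ U → x * y ∈ U := by
    intro x y hx hy
    rw [hU] at *
    have h1 : f * x = x := by
      calc f * x = f * (f * x * f) := by rw [hx]
        _ = (f * f) * x * f := by noncomm_ring
        _ = f * x * f := by rw [hf]
        _ = x := hx
    have h2 : y * f = y := by
      calc y * f = (f * y * f) * f := by rw [hy]
        _ = f * y * (f * f) := by noncomm_ring
        _ = f * y * f := by rw [hf]
        _ = y := hy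
    calc f * (x * y) * f = (f * x) * (y * f) := by noncomm_ring
      _ = x * y := by rw [h1, h2]
  induction s using Finset.induction_on generalizing z with
  | empty => simp only [Finset.sum_empty, mul_zero] at h; exact absurd h.symm hne
  | insert i s hi ih =>
    rw [Finset.sum_insert hi, mul_add] at h
    rcases loc (z * x i) (hUm _ _ hz (hx i (Finset.mem_insert_self i s))) with ⟨y, hy, hy2⟩ |
      ⟨y, hy, hy2⟩
    · exact ⟨i, Finset.mem_insert_self i s, y * z, hUm _ _ hy hz, by rw [mul_assoc]; exact hy2⟩
    · have h3 : f - z * x i = z * ∑ i ∈ s, x i := by rw [← h]; abel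
      rw [h3, ← mul_assoc] at hy2
      obtain ⟨j, hj, y', hy', hy2'⟩ := ih (fun j hj => hx j (Finset.mem_insert_of_mem hj))
        (y * z) (hUm _ _ hy hz) hy2
      exact ⟨j, Finset.mem_insert_of_mem hj, y', hy', hy2'⟩

section elim

variable [Finite R] {f : N → R} {T : N → N → AddSubgroup R}
  {K : Subgroup (Matrix N N R)ˣ}

theorem exists_col (hK1 : ∀ a b (h : a ≠ b), ∀ t ∈ T a b, tu a b t h ∈ K) (b : N) (c : N → R)
    (hc : ∀ a, c a ∈ T a b) (s : Finset N) (hs : b ∉ s) :
    ∃ u ∈ K, ((u : (Matrix N N R)ˣ) : Matrix N N R) = 1 + ∑ a ∈ s, Matrix.single a b (c a) := by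
  classical
  induction s using Finset.induction_on with
  | empty => exact ⟨1, K.one_mem, by simp⟩
  | insert a s ha ih =>
    have hab : a ≠ b := fun h => hs (by rw [← h]; exact Finset.mem_insert_self a s)
    have hbs : b ∉ s := fun h => hs (Finset.mem_insert_of_mem h)
    obtain ⟨u, hu, hu2⟩ := ih hbs
    refine ⟨tu a b (c a) hab * u, K.mul_mem (hK1 a b hab _ (hc a)) hu, ?_⟩
    rw [Units.val_mul, hu2, tu_val, Finset.sum_insert ha]
    have h0 : Matrix.single a b (c a) * ∑ a ∈ s, Matrix.single a b (c a) = 0 := by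
      rw [Finset.mul_sum]
      refine Finset.sum_eq_zero fun a' ha' => ?_
      exact Matrix.single_mul_single_of_ne _ _ _ _ (fun h => hbs (by rw [h]; exact ha')) _
    rw [mul_add, mul_one, add_mul, h0, one_mul, add_zero, add_assoc]

theorem exists_row (hK1 : ∀ a b (h : a ≠ b), ∀ t ∈ T a b, tu a b t h ∈ K) (b : N) (c : N → R)
    (hc : ∀ a, c a ∈ T b a) (s : Finset N) (hs : b ∉ s) :
    ∃ u ∈ K, ((u : (Matrix N N R)ˣ) : Matrix N N R) = 1 + ∑ a ∈ s, Matrix.single b a (c a) := by
  classical
  induction s using Finset.induction_on with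
  | empty => exact ⟨1, K.one_mem, by simp⟩
  | insert a s ha ih =>
    have hab : b ≠ a := fun h => hs (by rw [h]; exact Finset.mem_insert_self a s)
    have hbs : b ∉ s := fun h => hs (Finset.mem_insert_of_mem h)
    obtain ⟨u, hu, hu2⟩ := ih hbs
    refine ⟨tu b a (c a) hab * u, K.mul_mem (hK1 b a hab _ (hc a)) hu, ?_⟩
    rw [Units.val_mul, hu2, tu_val, Finset.sum_insert ha]
    have h0 : Matrix.single b a (c a) * ∑ a ∈ s, Matrix.single b a (c a) = 0 := by
      rw [Finset.mul_sum]
      refine Finset.sum_eq_zero fun a' ha' => ?_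
      exact Matrix.single_mul_single_of_ne _ _ _ _ (Ne.symm hab) _
    rw [mul_add, mul_one, add_mul, h0, one_mul, add_zero, add_assoc]

omit [Finite R] in
theorem single_mul_apply (b a : N) (s : R) (M : Matrix N N R) (i c : N) :
    (Matrix.single b a s * M) i c = if i = b then s * M a c else 0 := by
  rw [Matrix.mul_apply]
  split_ifs with h
  · subst h
    rw [Finset.sum_eq_single a]
    · rw [Matrix.single_apply, if_pos ⟨rfl, rfl⟩]
    · intro j _ hj
      rw [Matrix.single_apply, if_neg (fun h => hj h.2.symm), zero_mul]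
    · intro h; exact absurd (Finset.mem_univ a) h
  · refine Finset.sum_eq_zero fun j _ => ?_
    rw [Matrix.single_apply, if_neg (fun h' => h h'.1.symm), zero_mul]

/-- The pivot. -/
theorem pivot (hf : ∀ a, f a * f a = f a)
    (hT : ∀ a b t, t ∈ T a b → f a * t * f b = t)
    (hTT : ∀ a b c s t, s ∈ T a b → t ∈ T b c → s * t ∈ T a c)
    (hdiag : ∀ a x, f a * x * f a = x → x ∈ T a a)
    (loc : ∀ a, ∀ x ∈ T a a, (∃ y ∈ T a a, y * x = f a) ∨ (∃ y ∈ T a a, y * (f a - x) = f a))
    (hK1 : ∀ a b (h : a ≠ b), ∀ t ∈ T a b, tu a b t h ∈ K)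
    (hK2 : ∀ b, ∀ x ∈ T b b, ∀ u : (Matrix N N R)ˣ,
      (u : Matrix N N R) = 1 + Matrix.single b b x → u ∈ K)
    (g : (Matrix N N R)ˣ) (hg : InT T ((g : Matrix N N R) - 1)) (b : N) :
    ∃ a, ((g : Matrix N N R) a b ≠ 0 ∨ a = b) ∧ ∃ s ∈ T b a, ∃ u ∈ K,
      (u : Matrix N N R) = 1 + Matrix.single b a s ∧
      ((g : Matrix N N R) - 1) b b + s * (g : Matrix N N R) a b = 0 := by
  classical
  have hfin : Finite (Matrix N N R) := inferInstanceAs (Finite (N → N → R))
  by_cases hne : f b = 0
  · refine ⟨b, Or.inr rfl, 0, (T b b).zero_mem, 1, K.one_mem, by simp, ?_⟩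
    rw [zero_mul, add_zero, ← hT b b _ (hg b b), hne, mul_zero]
  obtain ⟨X, hX⟩ : ∃ X : Matrix N N R, (g : Matrix N N R) = 1 + X :=
    ⟨(g : Matrix N N R) - 1, by abel⟩
  obtain ⟨Y, hY⟩ : ∃ Y : Matrix N N R, ((g⁻¹ : (Matrix N N R)ˣ) : Matrix N N R) = 1 + Y :=
    ⟨((g⁻¹ : (Matrix N N R)ˣ) : Matrix N N R) - 1, by abel⟩
  have hgX : (g : Matrix N N R) - 1 = X := by rw [hX]; abel
  have hgY : ((g⁻¹ : (Matrix N N R)ˣ) : Matrix N N R) - 1 = Y := by rw [hY]; abel
  have hYT : InT T Y := by rw [← hgY]; exact inv_sub_one hTT hg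
  have hXT : InT T X := by rw [← hgX]; exact hg
  rw [hgX]
  have hYX : Y + X + Y * X = 0 := by
    have h1 : ((g⁻¹ : (Matrix N N R)ˣ) : Matrix N N R) * (g : Matrix N N R) = 1 :=
      Units.inv_mul g
    rw [hX, hY] at h1
    have h2 : (1 + Y) * (1 + X) = 1 + (Y + X + Y * X) := by noncomm_ring
    rw [h2] at h1
    exact left_eq_add.mp h1.symm
  have hfT : ∀ a, f a ∈ T a a := fun a => hdiag a _ (by rw [hf, hf])
  have hfl : ∀ a c t, t ∈ T a c → f a * t = t := by
    intro a c t ht
    calc f a * t = f a * (f a * t * f c) := by rw [hT a c t ht]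
      _ = (f a * f a) * t * f c := by noncomm_ring
      _ = t := by rw [hf, hT a c t ht]
  have hfr : ∀ a c t, t ∈ T a c → t * f c = t := by
    intro a c t ht
    calc t * f c = (f a * t * f c) * f c := by rw [hT a c t ht]
      _ = f a * t * (f c * f c) := by noncomm_ring
      _ = t := by rw [hf, hT a c t ht]
  obtain ⟨F, hF⟩ : ∃ F : Matrix N N R, F = Matrix.single b b (f b) := ⟨_, rfl⟩
  have hFT : InT T F := by rw [hF]; exact InT.single (hfT b)
  have hsum : ∑ a, (F + Y) b a * (F + X) a b = f b := by
    rw [← Matrix.mul_apply]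
    have e1 : (F + Y) * (F + X) = F * F + F * X + Y * F + Y * X := by noncomm_ring
    rw [e1]
    simp only [Matrix.add_apply]
    have e2 : (F * F) b b = f b := by
      rw [hF, single_mul_apply, if_pos rfl, Matrix.single_apply, if_pos ⟨rfl, rfl⟩, hf]
    have e3 : (F * X) b b = X b b := by
      rw [hF, single_mul_apply, if_pos rfl, hfl b b _ (hXT b b)]
    have e4 : (Y * F) b b = Y b b := by
      rw [Matrix.mul_apply, Finset.sum_eq_single b]
      · rw [hF, Matrix.single_apply, if_pos ⟨rfl, rfl⟩, hfr b b _ (hYT b b)]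
      · intro j _ hj
        rw [hF, Matrix.single_apply, if_neg (fun h => hj h.1.symm), mul_zero]
      · intro h; exact absurd (Finset.mem_univ b) h
    have e5 : Y b b + X b b + (Y * X) b b = 0 := by
      have := congrFun (congrFun hYX b) b
      simpa only [Matrix.add_apply, Matrix.zero_apply] using this
    rw [e2, e3, e4]
    calc f b + X b b + Y b b + (Y * X) b b = f b + (Y b b + X b b + (Y * X) b b) := by abel
      _ = f b := by rw [e5, add_zero]
  obtain ⟨a, -, y, hy, hya⟩ := exists_left_inv (f := f b) (U := T b b)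
    (fun x => ⟨fun h => hT b b x h, fun h => hdiag b x h⟩) (hf b) hne (loc b)
    (Finset.univ : Finset N) (fun a => (F + Y) b a * (F + X) a b)
    (fun a _ => hTT b a b _ _ ((hFT.add hYT) b a) ((hFT.add hXT) a b)) (f b) (hfT b)
    (by rw [hsum, hf])
  obtain ⟨v, hv⟩ : ∃ v, v = y * (F + Y) b a := ⟨_, rfl⟩
  have hvT : v ∈ T b a := by rw [hv]; exact hTT b b a _ _ hy ((hFT.add hYT) b a)
  have hvx : v * (F + X) a b = f b := by rw [hv, mul_assoc]; exact hya
  by_cases hab : a = b
  · subst hab
    have hw : (F + X) a a = f a + X a a := by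
      rw [Matrix.add_apply, hF, Matrix.single_apply, if_pos ⟨rfl, rfl⟩]
    rw [hw] at hvx
    have hwT : f a + X a a ∈ T a a := (T a a).add_mem (hfT a) (hXT a a)
    have hDD : (1 + Matrix.single a a (v - f a)) * (1 + Matrix.single a a (f a + X a a - f a)) =
        (1 : Matrix N N R) := by
      have e1 : (1 + Matrix.single a a (v - f a)) *
          (1 + Matrix.single a a (f a + X a a - f a)) = (1 : Matrix N N R) +
          (Matrix.single a a (v - f a) + Matrix.single a a (f a + X a a - f a) +
            Matrix.single a a (v - f a) * Matrix.single a a (f a + X a a - f a)) := by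
        noncomm_ring
      rw [e1, Matrix.single_mul_single_same, ← Matrix.single_add, ← Matrix.single_add]
      have e2 : v - f a + (f a + X a a - f a) + (v - f a) * (f a + X a a - f a) = 0 := by
        have h1 : f a * X a a = X a a := hfl a a _ (hXT a a)
        have h2 : v * f a = v := hfr a a _ hvT
        rw [mul_add, h2] at hvx
        calc v - f a + (f a + X a a - f a) + (v - f a) * (f a + X a a - f a)
            = (v + v * X a a) - f a + (X a a - f a * X a a) := by noncomm_ring
          _ = 0 := by rw [hvx, h1]; abel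
      rw [e2, Matrix.single_zero, add_zero]
    have hDD' : (1 + Matrix.single a a (f a + X a a - f a)) *
        (1 + Matrix.single a a (v - f a)) = (1 : Matrix N N R) := mul_eq_one_comm.mp hDD
    refine ⟨a, Or.inr rfl, v - f a, (T a a).sub_mem hvT (hfT a), ⟨_, _, hDD, hDD'⟩,
      hK2 a (v - f a) ((T a a).sub_mem hvT (hfT a)) _ rfl, rfl, ?_⟩
    rw [hX, Matrix.add_apply, Matrix.one_apply_eq]
    have h1 : f a * X a a = X a a := hfl a a _ (hXT a a)
    have h2 : v * f a = v := hfr a a _ hvT
    rw [mul_add, h2] at hvx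
    calc X a a + (v - f a) * (1 + X a a) = (v + v * X a a) - f a + (X a a - f a * X a a) := by
          noncomm_ring
      _ = 0 := by rw [hvx, h1]; abel
  · have hx1 : (F + X) a b = X a b := by
      rw [Matrix.add_apply, hF, Matrix.single_apply, if_neg (fun h => hab h.1.symm), zero_add]
    have hx2 : (g : Matrix N N R) a b = X a b := by
      rw [hX, Matrix.add_apply, Matrix.one_apply_ne hab, zero_add]
    rw [hx1] at hvx
    refine ⟨a, Or.inl ?_, -(X b b * v), (T b a).neg_mem (hTT b b a _ _ (hXT b b) hvT),
      tu b a (-(X b b * v)) (Ne.symm hab), hK1 _ _ _ _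
        ((T b a).neg_mem (hTT b b a _ _ (hXT b b) hvT)), rfl, ?_⟩
    · rw [hx2]; intro h0; rw [h0, mul_zero] at hvx; exact hne hvx.symm
    · rw [hx2, neg_mul, mul_assoc, hvx, hfr b b _ (hXT b b), add_neg_cancel]

omit [Finite R] in
theorem col_mul (b : N) (x : N → R) (M : Matrix N N R) (i c : N) :
    ((Matrix.of fun a c => if c = b then x a else 0) * M) i c = x i * M b c := by
  rw [Matrix.mul_apply, Finset.sum_eq_single b]
  · simp
  · intro j _ hj
    simp [hj]
  · intro h; exact absurd (Finset.mem_univ b) h

omit [Finite R] in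
theorem mul_row (b : N) (y : N → R) (M : Matrix N N R) (i c : N) :
    (M * (Matrix.of fun a c => if a = b then y c else 0)) i c = M i b * y c := by
  rw [Matrix.mul_apply, Finset.sum_eq_single b]
  · simp
  · intro j _ hj
    simp [hj]
  · intro h; exact absurd (Finset.mem_univ b) h

omit [Finite R] in
theorem sum_col (b : N) (x : N → R) (hx : x b = 0) :
    (∑ a ∈ Finset.univ.erase b, Matrix.single a b (x a)) =
      (Matrix.of fun a c => if c = b then x a else 0 : Matrix N N R) := by
  ext i c
  rw [Matrix.sum_apply, Matrix.of_apply]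
  simp only [Matrix.single_apply]
  split_ifs with h
  · subst h
    by_cases hi : i = c
    · subst hi
      rw [hx]
      refine Finset.sum_eq_zero fun j hj => ?_
      rw [if_neg (fun h => (Finset.ne_of_mem_erase hj) h.1)]
    · rw [Finset.sum_eq_single i]
      · simp
      · intro j _ hj
        rw [if_neg (fun h => hj h.1)]
      · intro h; exact absurd (Finset.mem_erase.mpr ⟨hi, Finset.mem_univ i⟩) h
  · refine Finset.sum_eq_zero fun j _ => ?_
    rw [if_neg (fun h' => h h'.2.symm)]

omit [Finite R] in
theorem sum_row (b : N) (x : N → R) (hx : x b = 0) :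
    (∑ a ∈ Finset.univ.erase b, Matrix.single b a (x a)) =
      (Matrix.of fun a c => if a = b then x c else 0 : Matrix N N R) := by
  ext i c
  rw [Matrix.sum_apply, Matrix.of_apply]
  simp only [Matrix.single_apply]
  split_ifs with h
  · subst h
    by_cases hi : i = c
    · subst hi
      rw [hx]
      refine Finset.sum_eq_zero fun j hj => ?_
      rw [if_neg (fun h => (Finset.ne_of_mem_erase hj) h.2)]
    · rw [Finset.sum_eq_single c]
      · simp
      · intro j _ hj
        rw [if_neg (fun h => hj h.2)]
      · intro h; exact absurd (Finset.mem_erase.mpr ⟨Ne.symm hi, Finset.mem_univ c⟩) h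
  · refine Finset.sum_eq_zero fun j _ => ?_
    rw [if_neg (fun h' => h h'.1.symm)]

/-- **Elimination over a net with local diagonal corners.** -/
theorem elim (hf : ∀ a, f a * f a = f a)
    (hT : ∀ a b t, t ∈ T a b → f a * t * f b = t)
    (hTT : ∀ a b c s t, s ∈ T a b → t ∈ T b c → s * t ∈ T a c)
    (hdiag : ∀ a x, f a * x * f a = x → x ∈ T a a)
    (loc : ∀ a, ∀ x ∈ T a a, (∃ y ∈ T a a, y * x = f a) ∨ (∃ y ∈ T a a, y * (f a - x) = f a))
    (hK1 : ∀ a b (h : a ≠ b), ∀ t ∈ T a b, tu a b t h ∈ K)
    (hK2 : ∀ b, ∀ x ∈ T b b, ∀ u : (Matrix N N R)ˣ,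
      (u : Matrix N N R) = 1 + Matrix.single b b x → u ∈ K)
    (g : (Matrix N N R)ˣ) (hg : InT T ((g : Matrix N N R) - 1)) : g ∈ K := by
  classical
  suffices H : ∀ S : Finset N, ∀ g : (Matrix N N R)ˣ, InT T ((g : Matrix N N R) - 1) →
      (∀ a c, a ∉ S ∨ c ∉ S → ((g : Matrix N N R) - 1) a c = 0) → g ∈ K from
    H Finset.univ g hg (fun a c h => by
      rcases h with h | h <;> exact absurd (Finset.mem_univ _) h)
  intro S
  induction S using Finset.induction_on with
  | empty =>
    intro g _ h
    have : g = 1 := by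
      apply Units.ext
      rw [Units.val_one]
      apply sub_eq_zero.mp
      ext a c
      exact h a c (Or.inl (Finset.notMem_empty a))
    rw [this]; exact K.one_mem
  | insert b S hb ih =>
    intro g hg hcl
    -- the pivot
    obtain ⟨a, ha, s, hs, u, hu, huv, hz⟩ := pivot hf hT hTT hdiag loc hK1 hK2 g hg b
    have haS : a ∈ insert b S := by
      rcases ha with ha | ha
      · by_contra hn
        have hab : a ≠ b := fun h => hn (by rw [h]; exact Finset.mem_insert_self b S)
        have := hcl a b (Or.inl hn)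
        rw [Matrix.sub_apply, Matrix.one_apply_ne hab, sub_zero] at this
        exact ha this
      · rw [ha]; exact Finset.mem_insert_self b S
    have huT : InT T ((u : Matrix N N R) - 1) := by
      rw [huv, add_sub_cancel_left]; exact InT.single hs
    obtain ⟨g1, hg1⟩ : ∃ g1, g1 = u * g := ⟨_, rfl⟩
    have hg1T : InT T ((g1 : Matrix N N R) - 1) := by
      rw [hg1, Units.val_mul]; exact mul_sub_one hTT huT hg
    have hg1v : ∀ i c, ((g1 : Matrix N N R) - 1) i c = ((g : Matrix N N R) - 1) i c +
        if i = b then s * (g : Matrix N N R) a c else 0 := by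
      intro i c
      rw [hg1, Units.val_mul, huv, add_mul, one_mul, Matrix.sub_apply, Matrix.add_apply,
        single_mul_apply, Matrix.sub_apply]
      abel
    have hg1b : ((g1 : Matrix N N R) - 1) b b = 0 := by rw [hg1v, if_pos rfl]; exact hz
    have hg1cl : ∀ i c, i ∉ insert b S ∨ c ∉ insert b S →
        ((g1 : Matrix N N R) - 1) i c = 0 := by
      intro i c h
      rw [hg1v, hcl i c h, zero_add]
      split_ifs with hi
      · rcases h with h | h
        · exact absurd (by rw [hi]; exact Finset.mem_insert_self b S) h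
        · have hac : a ≠ c := fun h' => h (by rw [← h']; exact haS)
          have := hcl a c (Or.inr h)
          rw [Matrix.sub_apply, Matrix.one_apply_ne hac, sub_zero] at this
          rw [this, mul_zero]
      · rfl
    suffices h1 : g1 ∈ K by
      have : g = u⁻¹ * g1 := by rw [hg1]; group
      rw [this]; exact K.mul_mem (K.inv_mem hu) h1
    -- clear the column and the row
    obtain ⟨X, hX⟩ : ∃ X : Matrix N N R, X = (g1 : Matrix N N R) - 1 := ⟨_, rfl⟩
    rw [← hX] at hg1T hg1b hg1cl
    obtain ⟨uc, huc, hucv⟩ := exists_col hK1 b (fun a => -X a b)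
      (fun a => (T a b).neg_mem (hg1T a b)) (Finset.univ.erase b) (by simp)
    obtain ⟨ur, hur, hurv⟩ := exists_row hK1 b (fun a => -X b a)
      (fun a => (T b a).neg_mem (hg1T b a)) (Finset.univ.erase b) (by simp)
    rw [sum_col b (fun a => -X a b) (by simp only [hg1b, neg_zero])] at hucv
    rw [sum_row b (fun a => -X b a) (by simp only [hg1b, neg_zero])] at hurv
    have hval : ∀ i c, (((uc * g1 * ur : (Matrix N N R)ˣ) : Matrix N N R) - 1) i c =
        X i c - (if c = b then X i b else 0) - (if i = b then X b c else 0) -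
          X i b * X b c := by
      intro i c
      have hg1e : (g1 : Matrix N N R) = 1 + X := by rw [hX]; abel
      rw [Units.val_mul, Units.val_mul, hucv, hurv, hg1e]
      obtain ⟨C, hC⟩ : ∃ C : Matrix N N R,
        C = (Matrix.of fun a c => if c = b then -X a b else 0 : Matrix N N R) := ⟨_, rfl⟩
      obtain ⟨W, hW⟩ : ∃ W : Matrix N N R,
        W = (Matrix.of fun a c => if a = b then -X b c else 0 : Matrix N N R) := ⟨_, rfl⟩
      have e1 : (1 + C) * (1 + X) * (1 + W) - 1 = X + C + W + C * X + X * W + C * W +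
          C * (X * W) := by noncomm_ring
      have e2 : ((1 + (Matrix.of fun a c => if c = b then (fun a => -X a b) a else 0 :
          Matrix N N R)) * (1 + X) * (1 + (Matrix.of fun a c => if a = b then
            (fun a => -X b a) c else 0 : Matrix N N R)) - 1) i c =
          (X + C + W + C * X + X * W + C * W + C * (X * W)) i c := by
        rw [← e1, hC, hW]
      rw [e2]
      simp only [Matrix.add_apply]
      have f1 : C i c = - (if c = b then X i b else 0) := by
        rw [hC, Matrix.of_apply]; split_ifs <;> simp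
      have f2 : W i c = - (if i = b then X b c else 0) := by
        rw [hW, Matrix.of_apply]; split_ifs <;> simp
      have f3 : (C * X) i c = -(X i b * X b c) := by
        rw [hC, col_mul b (fun a => -X a b), neg_mul]
      have f4 : (X * W) i c = -(X i b * X b c) := by
        rw [hW, mul_row b (fun a => -X b a), mul_neg]
      have f5 : (C * W) i c = X i b * X b c := by
        rw [hC, col_mul b (fun a => -X a b), hW, Matrix.of_apply, if_pos rfl, neg_mul_neg]
      have f6 : (C * (X * W)) i c = 0 := by
        rw [hC, col_mul b (fun a => -X a b), hW, mul_row b (fun a => -X b a), hg1b]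
        simp
      rw [f1, f2, f3, f4, f5, f6]
      abel
    have hcT : InT T ((uc : Matrix N N R) - 1) := by
      rw [hucv, add_sub_cancel_left]
      intro i c
      rw [Matrix.of_apply]
      split_ifs with h
      · rw [h]; exact (T i b).neg_mem (hg1T i b)
      · exact (T i c).zero_mem
    have hrT : InT T ((ur : Matrix N N R) - 1) := by
      rw [hurv, add_sub_cancel_left]
      intro i c
      rw [Matrix.of_apply]
      split_ifs with h
      · rw [h]; exact (T b c).neg_mem (hg1T b c)
      · exact (T i c).zero_mem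
    have hk : uc * g1 * ur ∈ K := by
      refine ih (uc * g1 * ur) ?_ ?_
      · rw [Units.val_mul, Units.val_mul]
        refine mul_sub_one hTT (mul_sub_one hTT hcT ?_) hrT
        rw [← hX]; exact hg1T
      · intro i c h
        rw [hval]
        by_cases hi : i = b
        · subst hi
          rw [if_pos rfl, hg1b]
          split_ifs <;> simp
        · by_cases hc : c = b
          · subst hc
            rw [if_pos rfl, if_neg hi, hg1b]
            simp
          · rw [if_neg hi, if_neg hc]
            have h' : i ∉ insert b S ∨ c ∉ insert b S := by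
              rcases h with h | h
              · left; rw [Finset.mem_insert]; exact fun h' => h'.elim hi h
              · right; rw [Finset.mem_insert]; exact fun h' => h'.elim hc h
            rw [hg1cl i c h']
            rcases h' with h' | h'
            · rw [hg1cl i b (Or.inl h')]; simp
            · rw [hg1cl b c (Or.inr h')]; simp
    have : g1 = uc⁻¹ * (uc * g1 * ur) * ur⁻¹ := by group
    rw [this]
    exact K.mul_mem (K.mul_mem (K.inv_mem huc) hk) (K.inv_mem hur)

end elim

end Vale.Agent.P183.R2.H868
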