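import Vale.Agent.P183.R2.H868.Elim
import Vale.Agent.P183.R2.H577.Base

/-! P183: elimination over local corners, in the language of `H577.Base`. -/

set_option linter.all false

namespace Vale.Agent.P183.H577

open Matrix

variable {R : Type} [Ring R] [Finite R] {n : ℕ}

/-- The Peirce components of a subring. -/
def peirce (e : Fin n → R) (S : Subring R) (i j : Fin n) : AddSubgroup R where
  carrier := {t | t ∈ S ∧ e i * t = t ∧ t * e j = t}
  zero_mem' := ⟨S.zero_mem, mul_zero _, zero_mul _⟩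
  add_mem' := by
    rintro x y ⟨h1, h2, h3⟩ ⟨g1, g2, g3⟩
    exact ⟨S.add_mem h1 g1, by rw [mul_add, h2, g2], by rw [add_mul, h3, g3]⟩
  neg_mem' := by
    rintro x ⟨h1, h2, h3⟩
    exact ⟨S.neg_mem h1, by rw [mul_neg, h2], by rw [neg_mul, h3]⟩

/-- ROW 4 (elimination over local corners). -/
theorem elim_row {ι : Type} [Fintype ι] [DecidableEq ι] (e : Fin n → R)
    (he : ∀ i, e i * e i = e i) (ho : ∀ i j, i ≠ j → e i * e j = 0) (hs : ∑ i, e i = 1)
    (hl : ∀ i x, e i * x = x → x * e i = x →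
      (∃ y, e i * y = y ∧ y * e i = y ∧ x * y = e i ∧ y * x = e i) ∨
      (∃ y, e i * y = y ∧ y * e i = y ∧ (e i - x) * y = e i ∧ y * (e i - x) = e i))
    (p : ι → Fin n) (S : Subring R) (hS : ∀ i x, e i * x * e i ∈ S)
    (K : Subgroup (Matrix ι ι R)ˣ) (hK : bl e p ≤ K)
    (hT : ∀ a b, p a ≠ p b → ∀ x ∈ S, In K (Matrix.single a b (e (p a) * x * e (p b)))) :
    gl e S p ≤ K := by
  classical
  have hin : ∀ i y, e i * y = y → y * e i = y → y ∈ peirce e S i i := by
    intro i y h1 h2
    refine ⟨?_, h1, h2⟩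
    have := hS i y
    rwa [h1, h2] at this
  -- block diagonal elements
  have hbl : ∀ (a b : ι), p a = p b → ∀ t ∈ peirce e S (p a) (p b), ∀ u : (Matrix ι ι R)ˣ,
      (u : Matrix ι ι R) = 1 + Matrix.single a b t → u ∈ K := by
    intro a b hab t ht u hu
    apply hK
    rw [bl, mem_grp, hu, add_sub_cancel_left]
    refine ⟨fun c d => ?_, fun c d hcd => ?_⟩
    · rw [Matrix.single_apply]
      split_ifs with h
      · obtain ⟨rfl, rfl⟩ := h
        exact ⟨Subring.mem_top _, ht.2.1, ht.2.2⟩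
      · exact ⟨Subring.zero_mem _, mul_zero _, zero_mul _⟩
    · rw [Matrix.single_apply, if_neg]
      rintro ⟨rfl, rfl⟩
      exact hcd hab
  intro g hg
  refine Vale.Agent.P183.R2.H868.elim (f := fun a => e (p a)) (T := fun a b => peirce e S (p a) (p b)) (K := K)
    (fun a => he (p a)) (fun a b t ht => by
      show e (p a) * t * e (p b) = t
      rw [ht.2.1, ht.2.2])
    (fun a b c s t hs ht => ⟨S.mul_mem hs.1 ht.1, by rw [← mul_assoc, hs.2.1],
      by rw [mul_assoc, ht.2.2]⟩)
    (fun a x hx => ?_) (fun a x hx => ?_) (fun a b h t ht => ?_) (fun b x hx u hu => ?_) g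
    (fun a b => hg a b)
  · refine hin (p a) x ?_ ?_
    · have hx' : e (p a) * x * e (p a) = x := hx
      calc e (p a) * x = e (p a) * (e (p a) * x * e (p a)) := by rw [hx']
        _ = (e (p a) * e (p a)) * x * e (p a) := by noncomm_ring
        _ = x := by rw [he, hx']
    · have hx' : e (p a) * x * e (p a) = x := hx
      calc x * e (p a) = (e (p a) * x * e (p a)) * e (p a) := by rw [hx']
        _ = e (p a) * x * (e (p a) * e (p a)) := by noncomm_ring
        _ = x := by rw [he, hx']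
  · rcases hl (p a) x hx.2.1 hx.2.2 with ⟨y, h1, h2, -, h4⟩ | ⟨y, h1, h2, -, h4⟩
    · exact Or.inl ⟨y, hin (p a) y h1 h2, h4⟩
    · exact Or.inr ⟨y, hin (p a) y h1 h2, h4⟩
  · by_cases hab : p a = p b
    · exact hbl a b hab t ht _ rfl
    · obtain ⟨u, hu, hu2⟩ := hT a b hab t ht.1
      rw [ht.2.1, ht.2.2] at hu2
      have : Vale.Agent.P183.R2.H868.tu a b t h = u := Units.ext (by rw [hu2]; rfl)
      rw [this]; exact hu
  · exact hbl b b rfl x hx u hu

end Vale.Agent.P183.H577
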